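import Vale.Agent.P088.R2.H961.F.Cvx2

/-!
# P088, zone B1: the frozen data satisfy the conditions of a cell

`mkCD` (helper961): `l = k ∘ lq`, `φ = Φ ∘ (2 l)`. From bounds at the points of the cell:
`CD.Ok` with `Nf = Φ'(2 l(p))` and `Lam = 25 C₃ + 8 C₂ + 15`.
-/

open Finset Set Filter
open scoped ContDiff Topology

noncomputable section

namespace Vale.Agent.P088.R2.H696.B1

open Vale.Agent.P088.LR Vale.Agent.P088.HY
open Vale.Agent.P088.R2.H464.EP (Sm TE Dat)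
open Vale.Agent.P088.R2.H961.F
open Vale.Agent.P088.R2.H516.B (mu Zn)
open Vale.Agent.P088.R2.H856.B (Zc sm_mul sm_add sm_sum)

variable {n : ℕ}

/-- The midpoint of a pair. -/
abbrev md (z : VV n) : V n := (1 / 2 : ℝ) • (z.1 + z.2)

theorem md_cd : ContDiff ℝ ∞ (md : VV n → V n) :=
  (contDiff_fst.add contDiff_snd).const_smul _

/-- `N = Φ'(2 l(p))`, a smooth function of the pair. -/
def mkN {k Φ : ℝ → ℝ} {lq : V n → ℝ} (ck : ContDiff ℝ ∞ k) (cΦ : ContDiff ℝ ∞ Φ)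
    (cq : ContDiff ℝ ∞ lq) : Sm (VV n) :=
  ⟨fun z => deriv Φ (2 * k (lq (md z))), by
    have h1 : ContDiff ℝ ∞ (deriv Φ) := (contDiff_infty_iff_deriv.1 cΦ).2
    exact h1.comp (contDiff_const.mul (ck.comp (cq.comp md_cd)))⟩

theorem mkN_val {k Φ : ℝ → ℝ} {lq : V n → ℝ} (ck : ContDiff ℝ ∞ k) (cΦ : ContDiff ℝ ∞ Φ)
    (cq : ContDiff ℝ ∞ lq) (z : VV n) :
    (mkN ck cΦ cq : VV n → ℝ) z = deriv Φ (2 * k (lq (md z))) := rfl

/-- The bounds of the level at a point. -/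
structure LB (M : Matrix (Fin n) (Fin n) ℝ) (k : ℝ → ℝ) (lq : V n → ℝ) (C₂ : ℝ) (p : V n) :
    Prop where
  d1 : ∀ i, |fderiv ℝ lq p (M.col i)| ≤ 2
  d0 : 1 / 2 ≤ ∑ i, fderiv ℝ lq p (M.col i) ^ 2
  d2 : ∀ i j, |fderiv ℝ (fun p => fderiv ℝ lq p (M.col j)) p (M.col i)| ≤ 1
  k1 : 3 / 4 ≤ deriv k (lq p)
  k1' : deriv k (lq p) ≤ 5 / 4
  k2 : |deriv (deriv k) (lq p)| ≤ C₂

/-- The bounds of the slope at a level. -/
structure NB (Φ : ℝ → ℝ) (C₃ u : ℝ) : Prop where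
  n1 : 1 ≤ deriv Φ u
  k0 : 0 ≤ deriv (deriv Φ) u
  kn : deriv (deriv Φ) u ≤ C₃ * deriv Φ u

/-- The constant of the cell. -/
def LamB (C₂ C₃ : ℝ) : ℝ := 25 * C₃ + 8 * C₂ + 15

section

variable {M N : Matrix (Fin n) (Fin n) ℝ} {nm : N * M = 1} {k Φ : ℝ → ℝ} {lq : V n → ℝ}
  (ck : ContDiff ℝ ∞ k) (cΦ : ContDiff ℝ ∞ Φ) (cq : ContDiff ℝ ∞ lq) {C₂ C₃ : ℝ} {z : VV n}

theorem l1_le (h : LB M k lq C₂ (md z)) (i : Fin n) :
    |((mkCD M N nm ck cΦ cq).T.l1 i : VV n → ℝ) z| ≤ 5 / 2 := by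
  have h1 := h.k1
  rw [mk_l1, abs_mul, abs_of_nonneg (by linarith)]
  have h2 := mul_le_mul h.k1' (h.d1 i) (abs_nonneg _) (by norm_num : (0 : ℝ) ≤ 5 / 4)
  exact h2.trans (by norm_num)

theorem l1_sq (h : LB M k lq C₂ (md z)) :
    9 / 32 ≤ ∑ i, ((mkCD M N nm ck cΦ cq).T.l1 i : VV n → ℝ) z ^ 2 := by
  have h1 := h.k1
  have e : ∑ i, ((mkCD M N nm ck cΦ cq).T.l1 i : VV n → ℝ) z ^ 2 =
      deriv k (lq (md z)) ^ 2 * ∑ i, fderiv ℝ lq (md z) (M.col i) ^ 2 := by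
    rw [Finset.mul_sum]
    exact Finset.sum_congr rfl fun i _ => by rw [mk_l1, mul_pow]
  rw [e]
  have h2 := h.d0
  have h3 : (3 / 4 : ℝ) ^ 2 ≤ deriv k (lq (md z)) ^ 2 := pow_le_pow_left₀ (by norm_num) h1 2
  nlinarith

theorem l2_le (h : LB M k lq C₂ (md z)) (i j : Fin n) :
    |((mkCD M N nm ck cΦ cq).T.l2 i j : VV n → ℝ) z| ≤ 4 * C₂ + 5 / 4 := by
  have h1 := h.k1
  have hC : 0 ≤ C₂ := (abs_nonneg _).trans h.k2
  rw [mk_l2]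
  refine (abs_add_le _ _).trans ?_
  rw [abs_mul, abs_mul, abs_mul, abs_of_nonneg (by linarith : 0 ≤ deriv k (lq (md z)))]
  have a1 : |fderiv ℝ lq (md z) (M.col i)| * |fderiv ℝ lq (md z) (M.col j)| ≤ 2 * 2 :=
    mul_le_mul (h.d1 i) (h.d1 j) (abs_nonneg _) (by norm_num)
  have a2 := mul_le_mul h.k2 a1 (by positivity) hC
  have a3 := mul_le_mul h.k1' (h.d2 i j) (abs_nonneg _) (by norm_num : (0 : ℝ) ≤ 5 / 4)
  linarith

theorem φ1_le (h : LB M k lq C₂ (md z)) (hN : NB Φ C₃ (2 * k (lq (md z)))) (i : Fin n) :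
    |((mkCD M N nm ck cΦ cq).T.φ1 i : VV n → ℝ) z| ≤ 5 * deriv Φ (2 * k (lq (md z))) := by
  have h0 := hN.n1
  rw [mk_φ1, abs_mul, abs_mul, abs_of_nonneg (by linarith : 0 ≤ deriv Φ (2 * k (lq (md z)))),
    abs_of_pos (by norm_num : (0 : ℝ) < 2)]
  have h1 := mul_le_mul_of_nonneg_left (l1_le (N := N) (nm := nm) ck cΦ cq h i)
    (by linarith : 0 ≤ 2 * deriv Φ (2 * k (lq (md z))))
  linarith

theorem φ2_le (h : LB M k lq C₂ (md z)) (hN : NB Φ C₃ (2 * k (lq (md z)))) (i j : Fin n) :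
    |((mkCD M N nm ck cΦ cq).T.φ2 i j : VV n → ℝ) z| ≤
      (25 * C₃ + 8 * C₂ + 5 / 2) * deriv Φ (2 * k (lq (md z))) := by
  have h0 := hN.n1
  have h1 := hN.k0
  have h2 := hN.kn
  have a1 := l1_le (N := N) (nm := nm) ck cΦ cq h i
  have a2 := l1_le (N := N) (nm := nm) ck cΦ cq h j
  have a3 := l2_le (N := N) (nm := nm) ck cΦ cq h i j
  rw [mk_φ2]
  refine (abs_add_le _ _).trans ?_
  rw [abs_mul, abs_mul, abs_mul, abs_mul, abs_mul,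
    abs_of_nonneg (by linarith : 0 ≤ deriv Φ (2 * k (lq (md z)))), abs_of_nonneg h1,
    abs_of_pos (by norm_num : (0 : ℝ) < 2), abs_of_pos (by norm_num : (0 : ℝ) < 4)]
  have b1 := mul_le_mul a1 a2 (abs_nonneg _) (by norm_num : (0 : ℝ) ≤ 5 / 2)
  have b2 := mul_le_mul_of_nonneg_left b1 (by linarith :
    0 ≤ 4 * deriv (deriv Φ) (2 * k (lq (md z))))
  have b3 := mul_le_mul_of_nonneg_left a3 (by linarith :
    0 ≤ 2 * deriv Φ (2 * k (lq (md z))))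
  nlinarith

theorem eqq_nn : 0 ≤ ((mkCD M N nm ck cΦ cq).T.e : VV n → ℝ) z *
    ((mkCD M N nm ck cΦ cq).T.qq : VV n → ℝ) z := by
  have h1 : ((mkCD M N nm ck cΦ cq).T.e : VV n → ℝ) z =
      1 * Real.exp (2 * k (lq (md z))) := rfl
  rw [h1, T_qq]
  have : 0 ≤ ∑ i, (∑ j, (mkCD M N nm ck cΦ cq).N i j * (z.1 j - z.2 j)) ^ 2 :=
    Finset.sum_nonneg fun i _ => sq_nonneg _
  positivity

theorem mu_v : (mu (mkCD M N nm ck cΦ cq).T : VV n → ℝ) z =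
    1 + ((mkCD M N nm ck cΦ cq).T.e : VV n → ℝ) z *
      ((mkCD M N nm ck cΦ cq).T.qq : VV n → ℝ) z := rfl

theorem g_v (i : Fin n) : ((mkCD M N nm ck cΦ cq).T.g i : VV n → ℝ) z =
    ((mkCD M N nm ck cΦ cq).T.l1 i : VV n → ℝ) z * (2 * deriv Φ (2 * k (lq (md z))) +
      ((mkCD M N nm ck cΦ cq).T.e : VV n → ℝ) z *
        ((mkCD M N nm ck cΦ cq).T.qq : VV n → ℝ) z) := by
  change ((mkCD M N nm ck cΦ cq).T.φ1 i : VV n → ℝ) z +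
    ((mkCD M N nm ck cΦ cq).T.l1 i : VV n → ℝ) z *
      ((mkCD M N nm ck cΦ cq).T.e : VV n → ℝ) z *
        ((mkCD M N nm ck cΦ cq).T.qq : VV n → ℝ) z = _
  rw [mk_φ1]
  ring

theorem kp_v (i j : Fin n) : (H516.B.kp (mkCD M N nm ck cΦ cq).T i j : VV n → ℝ) z =
    ((mkCD M N nm ck cΦ cq).T.φ2 i j : VV n → ℝ) z +
      (((mkCD M N nm ck cΦ cq).T.l2 i j : VV n → ℝ) z +
        2 * (((mkCD M N nm ck cΦ cq).T.l1 i : VV n → ℝ) z *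
          ((mkCD M N nm ck cΦ cq).T.l1 j : VV n → ℝ) z)) *
        (((mkCD M N nm ck cΦ cq).T.e : VV n → ℝ) z *
          ((mkCD M N nm ck cΦ cq).T.qq : VV n → ℝ) z) := by
  have h2 : ((2 : Sm (VV n)) : VV n → ℝ) z = 2 := H856.B.sm_two z
  change ((mkCD M N nm ck cΦ cq).T.φ2 i j : VV n → ℝ) z +
      (((mkCD M N nm ck cΦ cq).T.l2 i j : VV n → ℝ) z +
        ((2 : Sm (VV n)) : VV n → ℝ) z * (((mkCD M N nm ck cΦ cq).T.l1 i : VV n → ℝ) z *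
          ((mkCD M N nm ck cΦ cq).T.l1 j : VV n → ℝ) z)) *
        (((mkCD M N nm ck cΦ cq).T.e : VV n → ℝ) z *
          ((mkCD M N nm ck cΦ cq).T.qq : VV n → ℝ) z) = _
  rw [h2]

theorem kp_le (h : LB M k lq C₂ (md z)) (hN : NB Φ C₃ (2 * k (lq (md z)))) (hC₃ : 0 ≤ C₃)
    (i j : Fin n) : |(H516.B.kp (mkCD M N nm ck cΦ cq).T i j : VV n → ℝ) z| ≤
      LamB C₂ C₃ * ((mkN ck cΦ cq : VV n → ℝ) z +
        (mu (mkCD M N nm ck cΦ cq).T : VV n → ℝ) z) := by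
  have hC : 0 ≤ C₂ := (abs_nonneg _).trans h.k2
  have h0 := hN.n1
  have a1 := l1_le (N := N) (nm := nm) ck cΦ cq h i
  have a2 := l1_le (N := N) (nm := nm) ck cΦ cq h j
  have a3 := l2_le (N := N) (nm := nm) ck cΦ cq h i j
  have a4 := φ2_le (N := N) (nm := nm) ck cΦ cq h hN i j
  have a5 := eqq_nn (M := M) (N := N) (nm := nm) (z := z) ck cΦ cq
  rw [kp_v, mkN_val, mu_v]
  refine (abs_add_le _ _).trans ?_
  rw [abs_mul, abs_of_nonneg a5]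
  have b1 := mul_le_mul a1 a2 (abs_nonneg _) (by norm_num : (0 : ℝ) ≤ 5 / 2)
  have b2 : |((mkCD M N nm ck cΦ cq).T.l2 i j : VV n → ℝ) z +
        2 * (((mkCD M N nm ck cΦ cq).T.l1 i : VV n → ℝ) z *
          ((mkCD M N nm ck cΦ cq).T.l1 j : VV n → ℝ) z)| ≤ 4 * C₂ + 5 / 4 + 25 / 2 := by
    refine (abs_add_le _ _).trans ?_
    rw [abs_mul, abs_mul, abs_of_pos (by norm_num : (0 : ℝ) < 2)]
    linarith
  have b3 := mul_le_mul_of_nonneg_right b2 a5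
  have c1 : 4 * C₂ + 5 / 4 + 25 / 2 ≤ LamB C₂ C₃ := by unfold LamB; linarith
  have c2 : 25 * C₃ + 8 * C₂ + 5 / 2 ≤ LamB C₂ C₃ := by unfold LamB; linarith
  have c3 := mul_le_mul_of_nonneg_right c1 a5
  have c4 := mul_le_mul_of_nonneg_right c2 (by linarith :
    0 ≤ deriv Φ (2 * k (lq (md z))))
  have c5 : 0 ≤ LamB C₂ C₃ := by unfold LamB; linarith
  nlinarith

/-- **The conditions `Zn`.** -/
theorem zn_of {Z : Set (VV n)} (h : ∀ z ∈ Z, LB M k lq C₂ (md z))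
    (hN : ∀ z ∈ Z, NB Φ C₃ (2 * k (lq (md z)))) (hC₂ : 0 ≤ C₂) (hC₃ : 0 ≤ C₃) {eps : ℝ}
    (e0 : 0 < eps) (e1 : eps ≤ 1)
    (m3 : ∀ z ∈ Z, (1 + ((mkCD M N nm ck cΦ cq).T.e : VV n → ℝ) z *
      ((mkCD M N nm ck cΦ cq).T.qq : VV n → ℝ) z) ^ 3 ≤
        eps ^ 2 * ((mkCD M N nm ck cΦ cq).T.e : VV n → ℝ) z)
    (m2 : ∀ z ∈ Z, (deriv Φ (2 * k (lq (md z))) + (1 +
      ((mkCD M N nm ck cΦ cq).T.e : VV n → ℝ) z *
        ((mkCD M N nm ck cΦ cq).T.qq : VV n → ℝ) z)) ^ 2 ≤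
          ((mkCD M N nm ck cΦ cq).T.e : VV n → ℝ) z) :
    Zn (mkCD M N nm ck cΦ cq).T Z (mkN ck cΦ cq) (LamB C₂ C₃) eps where
  N0 z hz := by rw [mkN_val]; linarith [(hN z hz).n1]
  L1 := by unfold LamB; linarith
  e0 := e0
  e1 := e1
  m3 := m3
  m2 z hz := by rw [mkN_val, mu_v]; exact m2 z hz
  l1 z hz i := (l1_le ck cΦ cq (h z hz) i).trans (by unfold LamB; linarith)
  l2 z hz i j := (l2_le ck cΦ cq (h z hz) i j).trans (by unfold LamB; linarith)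
  kp z hz i j := kp_le ck cΦ cq (h z hz) (hN z hz) hC₃ i j

theorem hl_of {Z : Set (VV n)} (h : ∀ z ∈ Z, LB M k lq C₂ (md z)) (hC₂ : 0 ≤ C₂) (hC₃ : 0 ≤ C₃) :
    ∀ z ∈ Z, 1 ≤ LamB C₂ C₃ * ∑ j, ((mkCD M N nm ck cΦ cq).T.l1 j : VV n → ℝ) z ^ 2 := by
  intro z hz
  have h1 := l1_sq (N := N) (nm := nm) ck cΦ cq (h z hz)
  have h2 : (15 : ℝ) ≤ LamB C₂ C₃ := by unfold LamB; linarith
  nlinarith

/-- The diagonal of a nonnegative form. -/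
theorem diag_nn {A : Fin n → Fin n → ℝ} (h : ∀ x : Fin n → ℝ, 0 ≤ ∑ i, ∑ j, A i j * x i * x j)
    (i : Fin n) : 0 ≤ A i i := by
  have h1 := h (Pi.single i 1)
  have e : ∑ a, ∑ b, A a b * (Pi.single i (1 : ℝ) : Fin n → ℝ) a *
      (Pi.single i (1 : ℝ) : Fin n → ℝ) b = A i i := by
    rw [Finset.sum_eq_single i, Finset.sum_eq_single i]
    · simp
    · intro b _ hb
      simp [Pi.single_eq_of_ne hb]
    · simp
    · intro b _ hb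
      refine Finset.sum_eq_zero fun c _ => ?_
      simp [Pi.single_eq_of_ne hb]
    · simp
  rwa [e] at h1

/-- **The conditions `Zc`.** -/
theorem zc_of {Z : Set (VV n)} (h : ∀ z ∈ Z, LB M k lq C₂ (md z))
    (hN : ∀ z ∈ Z, NB Φ C₃ (2 * k (lq (md z)))) (hC₂ : 0 ≤ C₂) (hC₃ : 0 ≤ C₃)
    (pl : ∀ z (x : Fin n → ℝ), 0 ≤ ∑ i, ∑ j,
      ((mkCD M N nm ck cΦ cq).T.l2 i j : VV n → ℝ) z * x i * x j)
    (pφ : ∀ z (x : Fin n → ℝ), 0 ≤ ∑ i, ∑ j,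
      ((mkCD M N nm ck cΦ cq).T.φ2 i j : VV n → ℝ) z * x i * x j) :
    Zc (mkCD M N nm ck cΦ cq).T Z (mkN ck cΦ cq) (LamB C₂ C₃) where
  f1 z hz i := by
    rw [mkN_val]
    have h0 := (hN z hz).n1
    refine (φ1_le ck cΦ cq (h z hz) (hN z hz) i).trans ?_
    refine mul_le_mul_of_nonneg_right ?_ (by linarith)
    unfold LamB; linarith
  f2 z _ := Finset.sum_nonneg fun i _ => diag_nn (fun x => pφ z x) i
  l2 z _ := Finset.sum_nonneg fun i _ => diag_nn (fun x => pl z x) i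
  lf z hz := by
    have h0 := (hN z hz).n1
    refine Finset.sum_nonneg fun i _ => ?_
    rw [mk_φ1]
    have := mul_self_nonneg (((mkCD M N nm ck cΦ cq).T.l1 i : VV n → ℝ) z)
    have e : ((mkCD M N nm ck cΦ cq).T.l1 i : VV n → ℝ) z *
        (2 * deriv Φ (2 * k (lq (md z))) * ((mkCD M N nm ck cΦ cq).T.l1 i : VV n → ℝ) z) =
        2 * deriv Φ (2 * k (lq (md z))) * (((mkCD M N nm ck cΦ cq).T.l1 i : VV n → ℝ) z *
          ((mkCD M N nm ck cΦ cq).T.l1 i : VV n → ℝ) z) := by ring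
    rw [e]
    exact mul_nonneg (by linarith) this
  lb z hz := by
    have h0 := (hN z hz).n1
    have a5 := eqq_nn (M := M) (N := N) (nm := nm) (z := z) ck cΦ cq
    have h1 := hl_of (N := N) (nm := nm) ck cΦ cq h hC₂ hC₃ z hz
    have h2 : (1 : ℝ) ≤ LamB C₂ C₃ := by unfold LamB; linarith
    rw [mkN_val, mu_v]
    have e : ∑ i, ((mkCD M N nm ck cΦ cq).T.g i : VV n → ℝ) z ^ 2 =
        (2 * deriv Φ (2 * k (lq (md z))) + ((mkCD M N nm ck cΦ cq).T.e : VV n → ℝ) z *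
          ((mkCD M N nm ck cΦ cq).T.qq : VV n → ℝ) z) ^ 2 *
          ∑ i, ((mkCD M N nm ck cΦ cq).T.l1 i : VV n → ℝ) z ^ 2 := by
      rw [Finset.mul_sum]
      exact Finset.sum_congr rfl fun i _ => by rw [g_v]; ring
    rw [e]
    have h3 : (deriv Φ (2 * k (lq (md z))) + (1 +
        ((mkCD M N nm ck cΦ cq).T.e : VV n → ℝ) z *
          ((mkCD M N nm ck cΦ cq).T.qq : VV n → ℝ) z)) ^ 2 ≤
        (2 * deriv Φ (2 * k (lq (md z))) + ((mkCD M N nm ck cΦ cq).T.e : VV n → ℝ) z *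
          ((mkCD M N nm ck cΦ cq).T.qq : VV n → ℝ) z) ^ 2 :=
      pow_le_pow_left₀ (by linarith) (by linarith) 2
    have h4 : 1 ≤ LamB C₂ C₃ ^ 2 *
        ∑ i, ((mkCD M N nm ck cΦ cq).T.l1 i : VV n → ℝ) z ^ 2 := by
      have h5 : 0 ≤ ∑ i, ((mkCD M N nm ck cΦ cq).T.l1 i : VV n → ℝ) z ^ 2 :=
        Finset.sum_nonneg fun i _ => sq_nonneg _
      nlinarith
    have h6 : 0 ≤ (2 * deriv Φ (2 * k (lq (md z))) +
        ((mkCD M N nm ck cΦ cq).T.e : VV n → ℝ) z *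
          ((mkCD M N nm ck cΦ cq).T.qq : VV n → ℝ) z) ^ 2 := sq_nonneg _
    calc _ ≤ _ := h3
      _ ≤ (2 * deriv Φ (2 * k (lq (md z))) + ((mkCD M N nm ck cΦ cq).T.e : VV n → ℝ) z *
          ((mkCD M N nm ck cΦ cq).T.qq : VV n → ℝ) z) ^ 2 * (LamB C₂ C₃ ^ 2 *
        ∑ i, ((mkCD M N nm ck cΦ cq).T.l1 i : VV n → ℝ) z ^ 2) := le_mul_of_one_le_right h6 h4
      _ = _ := by ring

/-- **`CD.Ok` from bounds at the points of the cell.** -/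
theorem ok_of {Z : Set (VV n)} (h : ∀ z ∈ Z, LB M k lq C₂ (md z))
    (hN : ∀ z ∈ Z, NB Φ C₃ (2 * k (lq (md z)))) (hC₂ : 0 ≤ C₂) (hC₃ : 0 ≤ C₃)
    (pl : ∀ z (x : Fin n → ℝ), 0 ≤ ∑ i, ∑ j,
      ((mkCD M N nm ck cΦ cq).T.l2 i j : VV n → ℝ) z * x i * x j)
    (pφ : ∀ z (x : Fin n → ℝ), 0 ≤ ∑ i, ∑ j,
      ((mkCD M N nm ck cΦ cq).T.φ2 i j : VV n → ℝ) z * x i * x j) {eps : ℝ}
    (e0 : 0 < eps) (e1 : eps ≤ 1)
    (m3 : ∀ z ∈ Z, (1 + ((mkCD M N nm ck cΦ cq).T.e : VV n → ℝ) z *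
      ((mkCD M N nm ck cΦ cq).T.qq : VV n → ℝ) z) ^ 3 ≤
        eps ^ 2 * ((mkCD M N nm ck cΦ cq).T.e : VV n → ℝ) z)
    (m2 : ∀ z ∈ Z, (deriv Φ (2 * k (lq (md z))) + (1 +
      ((mkCD M N nm ck cΦ cq).T.e : VV n → ℝ) z *
        ((mkCD M N nm ck cΦ cq).T.qq : VV n → ℝ) z)) ^ 2 ≤
          ((mkCD M N nm ck cΦ cq).T.e : VV n → ℝ) z) :
    (mkCD M N nm ck cΦ cq).Ok Z (mkN ck cΦ cq) (LamB C₂ C₃) eps where
  pl := pl
  pφ := pφ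
  zn := zn_of ck cΦ cq h hN hC₂ hC₃ e0 e1 m3 m2
  zc := zc_of ck cΦ cq h hN hC₂ hC₃ pl pφ
  hl := hl_of ck cΦ cq h hC₂ hC₃

end

end Vale.Agent.P088.R2.H696.B1
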